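import Crest.Agent.H1KR.Defs
import Crest.Agent.H1VN.VN

/-! KR-D (3), part 1: projections and maximal partial isometries. -/

set_option autoImplicit false
open scoped InnerProductSpace ComplexConjugate
open Crest.Agent.H2.KS Crest.Agent.H9.KD Crest.Agent.H9.KB

namespace Crest.Agent.H4.KR

variable {K : Type*} [NormedAddCommGroup K] [InnerProductSpace ℂ K] [CompleteSpace K]
variable {C : Set (K →L[ℂ] K)}

theorem inner_star_l (x : K →L[ℂ] K) (η ζ : K) : ⟪star x η, ζ⟫_ℂ = ⟪η, x ζ⟫_ℂ :=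
  ContinuousLinearMap.adjoint_inner_left x ζ η

theorem inner_star_r (x : K →L[ℂ] K) (η ζ : K) : ⟪η, star x ζ⟫_ℂ = ⟪x η, ζ⟫_ℂ :=
  ContinuousLinearMap.adjoint_inner_right x η ζ

theorem exists_proj (hC : ∀ c ∈ C, star c ∈ C) (s : Set K) (hs : ∀ c ∈ C, ∀ v ∈ s, c v ∈ s) :
    ∃ q ∈ C.centralizer, IsStarProjection q ∧ (∀ v ∈ s, q v = v) ∧
      ∀ f : K →L[ℂ] K, (∀ v ∈ s, f v = 0) → f * q = 0 := by
  let V := (Submodule.span ℂ s).topologicalClosure
  haveI : CompleteSpace V := (Submodule.span ℂ s).isClosed_topologicalClosure.completeSpace_coe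
  have hV : ∀ c ∈ C, ∀ v ∈ V, c v ∈ V := fun c hc v hv =>
    map_mem_closure c.continuous hv fun v hv => by
      induction hv using Submodule.span_induction with
      | mem x hx => exact Submodule.subset_span (hs c hc x hx)
      | zero => simp
      | add x y _ _ hx hy => rw [map_add]; exact add_mem hx hy
      | smul a x _ hx => rw [map_smul]; exact Submodule.smul_mem _ _ hx
  refine ⟨V.starProjection, fun c hc => ?_, isStarProjection_starProjection, fun v hv =>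
    Submodule.starProjection_eq_self_iff.2
      (Submodule.le_topologicalClosure _ (Submodule.subset_span hv)), fun f hf => ?_⟩
  · ext x
    exact (H1VN.proj_comm V c (star c) (inner_star_l c) (hV c hc) (hV _ (hC c hc)) x).symm
  · ext x
    have : V ≤ LinearMap.ker f.toLinearMap := Submodule.topologicalClosure_minimal _
      (Submodule.span_le.2 hf) f.isClosed_ker
    exact this (V.starProjection_apply_mem x)

theorem norm_pi {v : K →L[ℂ] K} (h : IsStarProjection (star v * v)) (ζ : K) :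
    ‖v ζ‖ = ‖(star v * v) ζ‖ := by
  have : ⟪v ζ, v ζ⟫_ℂ = ⟪(star v * v) ζ, (star v * v) ζ⟫_ℂ := by
    rw [← inner_star_r (star v * v), h.isSelfAdjoint.star_eq, ← mul_apply_eq_comp (star v * v),
      h.isIdempotentElem.eq, mul_apply_eq_comp, inner_star_r]
  rw [@norm_eq_sqrt_re_inner ℂ, @norm_eq_sqrt_re_inner ℂ, this]

theorem pi_star {v : K →L[ℂ] K} (h : IsStarProjection (star v * v)) :
    IsStarProjection (v * star v) :=
  ⟨by rw [IsIdempotentElem, mul_assoc, ← mul_assoc (star v), ← mul_assoc, pi_mul h],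
    by simp [IsSelfAdjoint]⟩

theorem norm_add_sq_of {a b : K →L[ℂ] K} (h : star a * b = 0) (ζ : K) :
    ‖(a + b) ζ‖ ^ 2 = ‖a ζ‖ ^ 2 + ‖b ζ‖ ^ 2 := by
  have : ⟪a ζ, b ζ⟫_ℂ = 0 := by rw [← inner_star_r, ← mul_apply_eq_comp, h]; simp
  rw [_root_.add_apply, @norm_add_sq ℂ, this]; simp

/-- A maximal partial isometry `v` (with `e₀`, `e₁` constraints) with `α ‖v* η₁‖ ≤ ‖v η₂‖`. -/
theorem exists_max_pi (hC : ∀ c ∈ C, star c ∈ C) (Z : Submodule ℂ (PiLp 2 (fun _ : Fin 2 => K)))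
    (hZ : IsClosed (Z : Set (PiLp 2 (fun _ : Fin 2 => K)))) (α : ℝ) (hα : 0 ≤ α) (η₁ η₂ : K) :
    ∃ v ∈ C.centralizer, IsStarProjection (star v * v) ∧
      (∀ ζ, WithLp.toLp 2 ![(star v * v) ζ, v ζ] ∈ Z) ∧ α * ‖star v η₁‖ ≤ ‖v η₂‖ ∧
      ∀ t ∈ C.centralizer, IsStarProjection (star t * t) →
        (∀ ζ, WithLp.toLp 2 ![(star t * t) ζ, t ζ] ∈ Z) → α * ‖star t η₁‖ ≤ ‖t η₂‖ →
        star v * t = 0 → v * star t = 0 → t = 0 := by
  let Cond : Set (PiLp 2 (fun _ : Fin 2 => K)) → Prop := fun G =>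
    ∀ β, 0 ≤ β → (∀ g ∈ G, ‖⟪g 0, η₂⟫_ℂ‖ ≤ β * ‖g 0‖) → ∀ g ∈ G, α * ‖⟪g 1, η₁⟫_ℂ‖ ≤ β * ‖g 0‖
  let Good : Set (Submodule ℂ (PiLp 2 (fun _ : Fin 2 => K))) :=
    {G | (∀ c ∈ C, ∀ g ∈ G, amp (K := K) (Fin 2) c g ∈ G) ∧ G ≤ Z ∧
    (∀ g ∈ G, ∀ g' ∈ G, ⟪g 1, g' 1⟫_ℂ = ⟪g 0, g' 0⟫_ℂ) ∧ Cond G}
  obtain ⟨G, -, hG, hmax⟩ := zorn_le_nonempty₀ Good (by
    intro c hc hch y hy
    have hm : ∀ z, z ∈ sSup c ↔ ∃ y ∈ c, z ∈ y := fun z =>
      Submodule.mem_sSup_of_directed ⟨y, hy⟩ hch.directedOn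
    refine ⟨sSup c, ⟨?_, sSup_le fun G hG => (hc hG).2.1, ?_, ?_⟩, fun z hz => le_sSup hz⟩
    · intro d hd g hg
      obtain ⟨G, hG, hg⟩ := (hm g).mp hg
      exact (hm _).mpr ⟨G, hG, (hc hG).1 d hd g hg⟩
    · intro g hg g' hg'
      obtain ⟨G, hG, hg⟩ := (hm g).mp hg
      obtain ⟨G', hG', hg'⟩ := (hm g').mp hg'
      rcases hch.total hG hG' with h | h
      · exact (hc hG').2.2.1 g (h hg) g' hg'
      · exact (hc hG).2.2.1 g hg g' (h hg')
    · intro β hβ h g hg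
      obtain ⟨G, hG, hg⟩ := (hm g).mp hg
      exact (hc hG).2.2.2 β hβ (fun g hg => h g ((hm g).mpr ⟨G, hG, hg⟩)) g hg) ⊥ (by
    refine ⟨?_, bot_le, ?_, ?_⟩
    · intro c _ g hg
      rw [Submodule.mem_bot] at hg ⊢
      rw [hg, map_zero]
    · intro g hg g' _
      rw [Submodule.mem_bot] at hg
      simp [hg]
    · intro β _ _ g hg
      obtain rfl : g = 0 := hg
      simp)
  have hclG : G.topologicalClosure ∈ Good := by
    refine ⟨fun c hc g hg => ?_, Submodule.topologicalClosure_minimal _ hG.2.1 hZ,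
      fun g hg g' hg' => ?_, fun β hβ h g hg => ?_⟩
    · exact map_mem_closure (amp (K := K) (Fin 2) c).continuous hg (hG.1 c hc)
    · have : closure ((G : Set (PiLp 2 (fun _ : Fin 2 => K))) ×ˢ
          (G : Set (PiLp 2 (fun _ : Fin 2 => K)))) ⊆ {p | ⟪p.1 1, p.2 1⟫_ℂ = ⟪p.1 0, p.2 0⟫_ℂ} :=
        closure_minimal (fun p hp => hG.2.2.1 p.1 hp.1 p.2 hp.2)
          (isClosed_eq (by fun_prop) (by fun_prop))
      rw [closure_prod_eq] at this
      exact this (show (g, g') ∈ _ from ⟨hg, hg'⟩)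
    · have : closure (G : Set (PiLp 2 (fun _ : Fin 2 => K))) ⊆
          {g | α * ‖⟪g 1, η₁⟫_ℂ‖ ≤ β * ‖g 0‖} :=
        closure_minimal (hG.2.2.2 β hβ fun g hg => h g (G.le_topologicalClosure hg))
          (isClosed_le (by fun_prop) (by fun_prop))
      exact this hg
  have hcl : IsClosed (G : Set (PiLp 2 (fun _ : Fin 2 => K))) := by
    have : G.topologicalClosure = G :=
      le_antisymm (hmax hclG G.le_topologicalClosure) G.le_topologicalClosure
    rw [← this]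
    exact G.isClosed_topologicalClosure
  obtain ⟨w, hwP, hw0, hwG, hwg⟩ := sys_of_graph hC (0 : Fin 2) G hcl hG.1 (fun g hg g' hg' i => by
    fin_cases i
    · rfl
    · exact hG.2.2.1 g hg g' hg')
  have hvv : star (w 1) * w 1 = w 0 := by
    ext y
    refine ext_inner_left ℂ fun x => ?_
    have := hG.2.2.1 _ (hwG x) _ (hwG y)
    simp only at this
    rw [mul_apply_eq_comp, inner_star_r, this, ← inner_star_r,
      hw0.isSelfAdjoint.star_eq, ← mul_apply_eq_comp, hw0.isIdempotentElem.eq]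
  set v := w 1 with hv
  have hvp : IsStarProjection (star v * v) := hvv ▸ hw0
  have hgr : ∀ ζ, WithLp.toLp 2 ![(star v * v) ζ, v ζ] ∈ G := fun ζ => by
    convert hwG ζ using 2
    ext i; fin_cases i
    · simp [hvv]
    · rfl
  have hineq : α * ‖star v η₁‖ ≤ ‖v η₂‖ := by
    have h1 := hG.2.2.2 ‖v η₂‖ (norm_nonneg _) (fun g hg => by
      have e : ⟪g 0, η₂⟫_ℂ = ⟪g 0, w 0 η₂⟫_ℂ := by
        rw [← inner_star_l, hw0.isSelfAdjoint.star_eq, hwg g hg 0]
      rw [e, norm_pi hvp, hvv, mul_comm]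
      exact norm_inner_le_norm _ _) _ (hgr (star v η₁))
    have h2 : (star v * v) (star v η₁) = star v η₁ := by
      rw [← mul_apply_eq_comp, ← star_star (star v * v * star v), star_mul, star_star,
        hvp.isSelfAdjoint.star_eq, pi_mul hvp]
    change α * ‖⟪v (star v η₁), η₁⟫_ℂ‖ ≤ ‖v η₂‖ * ‖(star v * v) (star v η₁)‖ at h1
    rw [h2, ← inner_star_r, inner_self_eq_norm_sq_to_K, norm_pow, RCLike.norm_ofReal, abs_norm,
      sq, ← mul_assoc] at h1
    rcases (norm_nonneg (star v η₁)).eq_or_lt with h | h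
    · rw [← h, mul_zero]; exact norm_nonneg _
    · exact le_of_mul_le_mul_right h1 h
  refine ⟨v, hwP 1, hvp, fun ζ => hG.2.1 (hgr ζ), hineq, fun t htP htp htZ hti h1 h2 => ?_⟩
  have h1' : star t * v = 0 := by simpa using congrArg star h1
  have h2' : t * star v = 0 := by simpa using congrArg star h2
  have huu : star (v + t) * (v + t) = star v * v + star t * t := by
    rw [star_add, add_mul, mul_add, mul_add, h1, h1']; abel
  have hup : IsStarProjection (star (v + t) * (v + t)) := by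
    rw [huu]
    exact hvp.add htp (by rw [mul_assoc, ← mul_assoc v, h2]; simp)
  set u := v + t with hu
  have huP : u ∈ C.centralizer := add_mem (hwP 1) htP
  let L : K →ₗ[ℂ] (PiLp 2 (fun _ : Fin 2 => K)) := (WithLp.linearEquiv 2 ℂ (Fin 2 → K)).symm.toLinearMap ∘ₗ
    LinearMap.pi fun i => ((![star u * u, u] i : K →L[ℂ] K) : K →ₗ[ℂ] K)
  have hL0 : ∀ ζ, L ζ 0 = (star u * u) ζ := fun ζ => rfl
  have hL1 : ∀ ζ, L ζ 1 = u ζ := fun ζ => rfl
  have hi : α * ‖star u η₁‖ ≤ ‖u η₂‖ := by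
    refine le_of_sq_le_sq ?_ (norm_nonneg _)
    rw [mul_pow, hu, star_add, norm_add_sq_of h1, norm_add_sq_of (by rwa [star_star]), mul_add,
      ← mul_pow, ← mul_pow]
    gcongr
  have hsup : LinearMap.range L ∈ Good := by
    refine ⟨?_, ?_, ?_, fun β hβ h => ?_⟩
    · rintro c hc _ ⟨ζ, rfl⟩
      refine ⟨c ζ, ?_⟩
      ext i
      fin_cases i
      · exact (congrArg (fun T : K →L[ℂ] K => T ζ) (mul_mem (star_mem hC huP) huP c hc)).symm
      · exact (congrArg (fun T : K →L[ℂ] K => T ζ) (huP c hc)).symm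
    · rintro _ ⟨ζ, rfl⟩
      convert Z.add_mem (hG.2.1 (hgr ζ)) (htZ ζ) using 1
      ext i
      fin_cases i
      · exact congrArg (fun T : K →L[ℂ] K => T ζ) huu
      · rfl
    · rintro _ ⟨x, rfl⟩ _ ⟨y, rfl⟩
      rw [hL0, hL0, hL1, hL1, ← inner_star_r (star u * u), hup.isSelfAdjoint.star_eq,
        ← mul_apply_eq_comp (star u * u), hup.isIdempotentElem.eq, mul_apply_eq_comp, inner_star_r]
    · rintro _ ⟨ζ, rfl⟩
      have h3 := h _ ⟨η₂, rfl⟩
      rw [hL0, mul_apply_eq_comp, inner_star_l, inner_self_eq_norm_sq_to_K, norm_pow,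
        RCLike.norm_ofReal, abs_norm, sq, ← mul_apply_eq_comp, ← norm_pi hup] at h3
      have h4 : ‖u η₂‖ ≤ β := by
        rcases (norm_nonneg (u η₂)).eq_or_lt with h | h
        · rwa [← h]
        · exact le_of_mul_le_mul_right h3 h
      have e : ⟪u ζ, η₁⟫_ℂ = ⟪(star u * u) ζ, star u η₁⟫_ℂ := by
        rw [inner_star_r, ← mul_apply_eq_comp, pi_mul hup]
      rw [hL0, hL1, e]
      refine (mul_le_mul_of_nonneg_left (norm_inner_le_norm _ _) hα).trans ?_
      rw [mul_comm ‖(star u * u) ζ‖, ← mul_assoc]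
      exact mul_le_mul_of_nonneg_right (hi.trans h4) (norm_nonneg _)
  have hle := hmax hsup fun g hg => ⟨g 0, by
    have e0 : (star v * v) (g 0) = g 0 := by rw [hvv, hwg g hg 0]
    have e1 : t (g 0) = 0 := by rw [← e0, ← mul_apply_eq_comp, ← mul_assoc, h2']; simp
    ext i
    fin_cases i
    · change (star u * u) (g 0) = g 0
      rw [huu, _root_.add_apply, e0, mul_apply_eq_comp, e1]; simp
    · change (v + t) (g 0) = g 1
      rw [_root_.add_apply, e1, hwg g hg 1, add_zero]⟩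
  ext ζ
  have h5 := hwg _ (hle ⟨ζ, rfl⟩) 1
  rw [hL0, hL1, ← hv, huu, ← mul_apply_eq_comp, mul_add, pi_mul hvp, ← mul_assoc, h2, zero_mul,
    add_zero, hu, _root_.add_apply] at h5
  simpa using h5

end Crest.Agent.H4.KR
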