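import Crest.Agent.H4.KR.D1

/-! KR-D (3), part 2: a vector state that is locally almost tracial. -/

set_option autoImplicit false
open scoped InnerProductSpace ComplexConjugate
open Crest.Agent.H2.KS Crest.Agent.H9.KD Crest.Agent.H9.KB

namespace Crest.Agent.H4.KR

variable {K : Type*} [NormedAddCommGroup K] [InnerProductSpace ℂ K] [CompleteSpace K]
variable {C : Set (K →L[ℂ] K)}

theorem flip {a b c : K →L[ℂ] K} (ha : IsStarProjection a) (h : a * b = c) :
    star b * a = star c := by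
  have := star_eq_of h
  rwa [ha.isSelfAdjoint.star_eq] at this

theorem flip' {a b c : K →L[ℂ] K} (ha : IsStarProjection a) (h : b * a = c) :
    a * star b = star c := by
  have := star_eq_of h
  rwa [ha.isSelfAdjoint.star_eq] at this

theorem flipP {a b : K →L[ℂ] K} (ha : IsStarProjection a) (hb : IsStarProjection b)
    (h : a * b = b) : b * a = b := by
  have := flip ha h
  rwa [hb.isSelfAdjoint.star_eq] at this

theorem mem_ker_amp (e : K →L[ℂ] K) (x y : K) :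
    WithLp.toLp 2 ![x, y] ∈ LinearMap.ker (amp (K := K) (Fin 2) (1 - e)).toLinearMap ↔
      e x = x ∧ e y = y := by
  rw [LinearMap.mem_ker, PiLp.ext_iff, Fin.forall_fin_two]
  change x - e x = 0 ∧ y - e y = 0 ↔ _
  rw [sub_eq_zero, sub_eq_zero, eq_comm, eq_comm (a := y)]

theorem max1 (hC : ∀ c ∈ C, star c ∈ C) {g : K →L[ℂ] K} (hg : IsStarProjection g) (ξ : K) :
    ∃ v ∈ C.centralizer, IsStarProjection (star v * v) ∧ g * v = v ∧ v * g = v ∧
      2 * ‖star v ξ‖ ≤ ‖v ξ‖ ∧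
      ∀ t ∈ C.centralizer, IsStarProjection (star t * t) → g * t = t → t * g = t →
        star v * t = 0 → v * star t = 0 → ‖t ξ‖ ≤ 2 * ‖star t ξ‖ := by
  obtain ⟨v, hv, h1, h2, h3, h4⟩ := exists_max_pi hC _ (amp (K := K) (Fin 2) (1 - g)).isClosed_ker
    2 zero_le_two ξ ξ
  simp only [mem_ker_amp] at h2 h4
  refine ⟨v, hv, h1, by ext ζ; exact (h2 ζ).2, ?_, h3, fun t ht k1 k2 k3 k4 k5 => ?_⟩
  · have : g * (star v * v) = star v * v := by ext ζ; exact (h2 ζ).1
    rw [← pi_mul h1, mul_assoc, flipP hg h1 this]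
  · by_contra h
    have := h4 t ht k1 (fun ζ => by
      rw [← mul_apply_eq_comp, ← mul_apply_eq_comp, ← mul_assoc, flip' hg k3, k2]
      exact ⟨rfl, rfl⟩) (not_le.1 h).le k4 k5
    simp [this] at h

theorem max2 (hC : ∀ c ∈ C, star c ∈ C) (e : K →L[ℂ] K) {c : ℝ} (hc : 0 ≤ c) (ξ η : K) :
    ∃ p ∈ C.centralizer, IsStarProjection p ∧ e * p = p ∧ c * ‖p ξ‖ ≤ ‖p η‖ ∧
      ∀ q ∈ C.centralizer, IsStarProjection q → e * q = q → p * q = 0 → ‖q η‖ ≤ c * ‖q ξ‖ := by
  let d : PiLp 2 (fun _ : Fin 2 => K) →L[ℂ] K :=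
    PiLp.proj (𝕜 := ℂ) 2 (fun _ : Fin 2 => K) 0 - PiLp.proj (𝕜 := ℂ) 2 (fun _ : Fin 2 => K) 1
  obtain ⟨v, hv, h1, h2, h3, h4⟩ := exists_max_pi hC
    (LinearMap.ker (amp (K := K) (Fin 2) (1 - e)).toLinearMap ⊓ LinearMap.ker d.toLinearMap)
    ((amp (K := K) (Fin 2) (1 - e)).isClosed_ker.inter d.isClosed_ker) c hc ξ η
  have hd : ∀ x y : K, WithLp.toLp 2 ![x, y] ∈ LinearMap.ker d.toLinearMap ↔ x = y := fun x y =>
    sub_eq_zero (a := x) (b := y)
  simp only [Submodule.mem_inf, mem_ker_amp, hd] at h2 h4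
  have e1 : star v * v = v := by ext ζ; exact (h2 ζ).2
  have hp : IsStarProjection v := e1 ▸ h1
  rw [hp.isSelfAdjoint.star_eq] at h3 h4
  refine ⟨v, hv, hp, by ext ζ; exact (h2 ζ).1.2, h3, fun q hq k1 k2 k3 => ?_⟩
  by_contra h
  have := h4 q hq
  rw [k1.isSelfAdjoint.star_eq, k1.isIdempotentElem.eq] at this
  have := this k1 (fun ζ => by rw [← mul_apply_eq_comp, k2]; simp) (not_le.1 h).le k3 k3
  simp [this] at h

theorem local_cmp (hC : ∀ c ∈ C, star c ∈ C) {z₀ : K →L[ℂ] K} (hz : IsCP C.centralizer z₀)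
    (hz0 : z₀ ≠ 0)
    (hfin : ∀ s g, s ∈ C.centralizer → star s * s = g → IsStarProjection g → z₀ * g = g →
      g * s = s → s * star s = g) :
    ∃ g ∈ C.centralizer, IsStarProjection g ∧ z₀ * g = g ∧ g ≠ 0 ∧ ∃ (ξ : K) (κ : ℝ), 0 < κ ∧
      (∀ a ∈ C.centralizer, a ξ = 0 → a * g = 0) ∧
      ∀ p ∈ C.centralizer, IsStarProjection p → g * p = p → ∀ u ∈ C.centralizer,
        u ∈ unitary (K →L[ℂ] K) → g * u = u * g → ‖p (u ξ)‖ ≤ κ * ‖p ξ‖ := by
  obtain ⟨ξ', hξ'⟩ : ∃ ξ', z₀ ξ' ≠ 0 := by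
    by_contra h
    push Not at h
    exact hz0 (ContinuousLinearMap.ext h)
  set ξ := z₀ ξ' with hξ
  have hzξ : z₀ ξ = ξ := by rw [hξ, ← mul_apply_eq_comp, hz.proj.isIdempotentElem.eq]
  obtain ⟨g₀, hg₀P, hg₀, k1, k2⟩ := exists_proj hC {x | ∃ y ∈ C.centralizer.centralizer, y ξ = x}
    (by
      rintro c hc _ ⟨y, hy, rfl⟩
      exact ⟨c * y, mul_mem (Set.subset_centralizer_centralizer hc) hy, rfl⟩)
  have hgξ : g₀ ξ = ξ := k1 _ ⟨1, one_mem, rfl⟩
  have sep : ∀ a ∈ C.centralizer, a ξ = 0 → a * g₀ = 0 := fun a ha h => k2 a (by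
    rintro _ ⟨y, hy, rfl⟩
    rw [← mul_apply_eq_comp, hy a ha, mul_apply_eq_comp, h, map_zero])
  have hzg : z₀ * g₀ = g₀ := by
    have := sep (1 - z₀) (sub_mem one_mem hz.mem) (by simp [hzξ])
    rwa [sub_mul, one_mul, sub_eq_zero, eq_comm] at this
  obtain ⟨v, hvP, hv, gv, vg, hvi, hmax⟩ := max1 hC hg₀ ξ
  have hv' := pi_star hv
  have gv' : g₀ * star v = star v := flip' hg₀ vg
  have vg' : star v * g₀ = star v := flip hg₀ gv
  set e₀ := g₀ - star v * v with he₀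
  set f₀ := g₀ - v * star v with hf₀
  have he : IsStarProjection e₀ := hv.sub_of_mul_eq_left hg₀ (by rw [mul_assoc, vg])
  have hf : IsStarProjection f₀ := hv'.sub_of_mul_eq_left hg₀ (by rw [mul_assoc, vg'])
  have heP : e₀ ∈ C.centralizer := sub_mem hg₀P (mul_mem (star_mem hC hvP) hvP)
  have hfP : f₀ ∈ C.centralizer := sub_mem hg₀P (mul_mem hvP (star_mem hC hvP))
  have ge : g₀ * e₀ = e₀ := by rw [he₀, mul_sub, hg₀.isIdempotentElem.eq, ← mul_assoc, gv']
  have gf : g₀ * f₀ = f₀ := by rw [hf₀, mul_sub, hg₀.isIdempotentElem.eq, ← mul_assoc, gv]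
  have ve : v * e₀ = 0 := by rw [he₀, mul_sub, vg, pi_mul hv, sub_self]
  have vf : star v * f₀ = 0 := by
    have := pi_mul (u := star v) (by rwa [star_star])
    rw [star_star] at this
    rw [hf₀, mul_sub, vg', this, sub_self]
  have f0 : f₀ ≠ 0 := fun h => by
    have h1 : v * star v = g₀ := (sub_eq_zero.1 h).symm
    have h2 := hfin (star v) g₀ (star_mem hC hvP) (by rwa [star_star]) hg₀ hzg gv'
    rw [star_star] at h2
    have h3 := norm_pi (v := star v) (by rwa [star_star]) ξ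
    rw [star_star, h1, hgξ] at h3
    rw [norm_pi hv, h2, hgξ, h3] at hvi
    have := norm_pos_iff.2 hξ'
    linarith
  obtain ⟨a, ha, hne⟩ : ∃ a ∈ C.centralizer, f₀ * a * e₀ ≠ 0 := by
    by_contra h
    push Not at h
    obtain ⟨c, hc, hcp, c1, c2⟩ := exists_proj (C := C ∪ C.centralizer)
      (by rintro c (hc | hc); exacts [Or.inl (hC c hc), Or.inr (star_mem hC hc)])
      {x | ∃ a ∈ C.centralizer, ∃ η, (a * f₀) η = x} (by
        rintro c (hc | hc) _ ⟨a, ha, η, rfl⟩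
        · exact ⟨a, ha, c η, by
            rw [← mul_apply_eq_comp, ← mul_mem ha hfP c hc, mul_apply_eq_comp]⟩
        · exact ⟨c * a, mul_mem hc ha, η, rfl⟩)
    have hcP : c ∈ C.centralizer := fun d hd => hc d (Or.inl hd)
    have cc : ∀ a ∈ C.centralizer, a * c = c * a := fun a ha => hc a (Or.inr ha)
    have ec : e₀ * c = 0 := c2 _ (by
      rintro _ ⟨a, ha, η, rfl⟩
      have := congrArg star (h _ (star_mem hC ha))
      rw [star_mul, star_mul, star_star, he.isSelfAdjoint.star_eq, hf.isSelfAdjoint.star_eq] at this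
      rw [← mul_apply_eq_comp, this]; simp)
    have cf : c * f₀ = f₀ := by ext η; simpa using c1 _ ⟨1, one_mem, η, rfl⟩
    have hcc := hcp.isIdempotentElem.eq
    have h1 : star v * v * c = g₀ * c := by rwa [he₀, sub_mul, sub_eq_zero, eq_comm] at ec
    have h2 := hfin (v * c) (g₀ * c) (mul_mem hvP hcP)
      (by rw [star_mul, hcp.isSelfAdjoint.star_eq, mul_assoc, ← mul_assoc (star v), h1,
        ← mul_assoc, ← cc _ hg₀P, mul_assoc, hcc])
      (hg₀.mul hcp (cc _ hg₀P)) (by rw [← mul_assoc, hzg])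
      (by rw [mul_assoc, ← mul_assoc c, ← cc _ hvP, mul_assoc, hcc, ← mul_assoc, gv])
    rw [star_mul, hcp.isSelfAdjoint.star_eq, mul_assoc, ← mul_assoc c, hcc,
      ← cc _ (star_mem hC hvP), ← mul_assoc] at h2
    apply f0
    rw [← cf, ← cc _ hfP, hf₀, sub_mul, h2, sub_self]
  obtain ⟨w, hwP, hw, w1, -, -, w2, w3⟩ := polar' hC (f₀ * a * e₀) (mul_mem (mul_mem hfP ha) heP)
  have fw : f₀ * w = w := w2 _ (by rw [← mul_assoc, ← mul_assoc, hf.isIdempotentElem.eq])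
  have we : w * e₀ = w := w3 _ (by rw [mul_assoc, he.isIdempotentElem.eq])
  set e₁ := star w * w with he₁
  have e1P : e₁ ∈ C.centralizer := mul_mem (star_mem hC hwP) hwP
  have wg : w * g₀ = w := by rw [← we, mul_assoc, flipP hg₀ he ge]
  have e1g : e₁ * g₀ = e₁ := by rw [he₁, mul_assoc, wg]
  have ve1 : v * e₁ = 0 := by rw [he₁, ← flip' he we, mul_assoc, ← mul_assoc, ve, zero_mul]
  have step1 : ∀ t ∈ C.centralizer, IsStarProjection (star t * t) → e₁ * t = t → t * e₁ = t →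
      ‖t ξ‖ ≤ 2 * ‖star t (star w ξ)‖ := fun t ht h1 h2 h3 => by
    have e : star (w * t) * (w * t) = star t * t := by
      rw [star_mul, mul_assoc, ← mul_assoc (star w), ← he₁, h2]
    have := hmax (w * t) (mul_mem hwP ht) (e ▸ h1)
      (by rw [← fw, ← mul_assoc, ← mul_assoc, gf]) (by rw [mul_assoc, ← h3, mul_assoc, e1g])
      (by rw [← fw, ← mul_assoc, ← mul_assoc, vf, zero_mul, zero_mul])
      (by rw [star_mul, ← flip' hw h3, ← mul_assoc, ← mul_assoc, ve1, zero_mul, zero_mul])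
    rwa [norm_pi (e ▸ h1 : IsStarProjection (star (w * t) * (w * t))), e, ← norm_pi h1,
      star_mul] at this
  have e1ξ : 0 < ‖e₁ ξ‖ := norm_pos_iff.2 fun h => hne (by
    rw [← w1, ← e1g, sep _ e1P h, mul_zero])
  obtain ⟨p₀, p0P, hp₀, ep, hpi, hmax2⟩ := max2 hC e₁ (c := (‖e₁ (star w ξ)‖ + 1) / ‖e₁ ξ‖)
    (by positivity) ξ (star w ξ)
  have hg : IsStarProjection (e₁ - p₀) := hp₀.sub_of_mul_eq_right hw ep
  have eg : e₁ * (e₁ - p₀) = e₁ - p₀ := by rw [mul_sub, hw.isIdempotentElem.eq, ep]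
  have pg : p₀ * (e₁ - p₀) = 0 := by
    rw [mul_sub, flipP hw hp₀ ep, hp₀.isIdempotentElem.eq, sub_self]
  have g0e : g₀ * e₁ = e₁ := by
    have := flip' hg₀ e1g
    rwa [hw.isSelfAdjoint.star_eq] at this
  refine ⟨e₁ - p₀, sub_mem e1P p0P, hg, by rw [← eg, ← g0e, ← mul_assoc, ← mul_assoc, hzg],
    fun h => ?_, ξ, 2 * ((‖e₁ (star w ξ)‖ + 1) / ‖e₁ ξ‖), by positivity, fun a ha h => ?_,
    fun p hpP hp gp u huP hu gu => ?_⟩
  · rw [← sub_eq_zero.1 h, div_mul_cancel₀ _ e1ξ.ne'] at hpi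
    linarith
  · rw [← eg, ← g0e, ← mul_assoc, ← mul_assoc, sep a ha h, zero_mul, zero_mul]
  · have ep' : e₁ * p = p := by rw [← gp, ← mul_assoc, eg]
    have h1 := step1 (p * u) (mul_mem hpP huP)
      ⟨by
        rw [IsIdempotentElem, star_mul, hp.isSelfAdjoint.star_eq]
        calc _ = star u * (p * p) * (u * star u) * (p * p) * u := by noncomm_ring
          _ = _ := by
            rw [Unitary.mul_star_self_of_mem hu, hp.isIdempotentElem.eq, mul_one,
              mul_assoc _ p p, hp.isIdempotentElem.eq, mul_assoc _ p (p * u), ← mul_assoc p,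
              hp.isIdempotentElem.eq, mul_assoc],
        by simp [IsSelfAdjoint]⟩ (by rw [← mul_assoc, ep'])
      (by rw [← flipP hg hp gp, mul_assoc p, gu, mul_assoc, mul_assoc, flipP hw hg eg])
    have h2 := hmax2 p hpP hp ep' (by rw [← gp, ← mul_assoc, pg, zero_mul])
    have h3 : ‖star (p * u) (star w ξ)‖ = ‖p (star w ξ)‖ := by
      rw [star_mul, hp.isSelfAdjoint.star_eq, mul_apply_eq_comp,
        norm_pi (v := star u) (by rw [star_star, Unitary.mul_star_self_of_mem hu]; exact .one _),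
        star_star, Unitary.mul_star_self_of_mem hu]; rfl
    rw [h3] at h1
    rw [mul_assoc]
    exact h1.trans (by gcongr)

end Crest.Agent.H4.KR
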