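import Crest.Agent.H4.KR.D2

/-! KR-D (3), part 3: from an almost tracial vector state to a trace. -/

set_option autoImplicit false
open scoped InnerProductSpace ComplexConjugate
open Crest.Agent.H2.KS Crest.Agent.H9.KD Crest.Agent.H9.KB Filter Topology

namespace Crest.Agent.H4.KR

variable {K : Type*} [NormedAddCommGroup K] [InnerProductSpace ℂ K] [CompleteSpace K]
variable {C : Set (K →L[ℂ] K)}

theorem re_star_mul (a : K →L[ℂ] K) (ξ : K) : (⟪ξ, (star a * a) ξ⟫_ℂ).re = ‖a ξ‖ ^ 2 := by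
  rw [mul_apply_eq_comp, inner_star_r]
  exact inner_self_eq_norm_sq (𝕜 := ℂ) _

theorem pos_of_proj (hC : ∀ c ∈ C, star c ∈ C) (ξ η : K) {κ : ℝ} (hκ : 0 ≤ κ)
    (h : ∀ p ∈ C.centralizer, IsStarProjection p → ‖p η‖ ≤ κ * ‖p ξ‖) :
    ∀ a ∈ C.centralizer, ‖a η‖ ≤ κ * ‖a ξ‖ := by
  let F : (K →L[ℂ] K) → ℝ := fun b => κ ^ 2 * (⟪ξ, b ξ⟫_ℂ).re - (⟪η, b η⟫_ℂ).re
  have Fa : ∀ b c, F (b + c) = F b + F c := fun b c => by simp only [F]; simp [inner_add_right]; ring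
  have Fs : ∀ (r : ℝ) b, F ((r : ℂ) • b) = r * F b := fun r b => by
    simp only [F, ContinuousLinearMap.smul_apply, inner_smul_right, Complex.re_ofReal_mul]; ring
  have Fm : ∀ a, F (star a * a) = (κ * ‖a ξ‖) ^ 2 - ‖a η‖ ^ 2 := fun a => by
    simp only [F, re_star_mul]; ring
  set M := κ ^ 2 * ‖ξ‖ ^ 2 + ‖η‖ ^ 2 with hM
  have Fb : ∀ b, -(M * ‖b‖) ≤ F b := fun b => by
    have : ∀ x : K, |(⟪x, b x⟫_ℂ).re| ≤ ‖x‖ ^ 2 * ‖b‖ := fun x =>
      (Complex.abs_re_le_norm _).trans ((norm_inner_le_norm _ _).trans (by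
        have := b.le_opNorm x
        nlinarith [norm_nonneg x]))
    have h1 := abs_le.1 (this ξ)
    have h2 := abs_le.1 (this η)
    simp only [F, hM]
    nlinarith [sq_nonneg κ]
  have M0 : 0 ≤ M := by positivity
  have key : ∀ k : ℕ, ∀ x ∈ C.centralizer, IsSelfAdjoint x → ∀ r : ℝ, ‖x‖ ≤ r →
      -(2 * r * M * (1 / 2) ^ k) ≤ F (x + (r : ℂ) • 1) := by
    intro k
    induction k with
    | zero =>
      intro x _ _ r hr
      have hr0 := (norm_nonneg x).trans hr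
      have : ‖x + (r : ℂ) • (1 : K →L[ℂ] K)‖ ≤ 2 * r := (norm_add_le _ _).trans (by
        rw [norm_smul, Complex.norm_real, Real.norm_of_nonneg hr0]
        have : ‖(1 : K →L[ℂ] K)‖ ≤ 1 := ContinuousLinearMap.norm_id_le
        nlinarith)
      have h2 := Fb (x + (r : ℂ) • 1)
      nlinarith
    | succ k ih =>
      intro x hx hxs r hr
      have hr0 := (norm_nonneg x).trans hr
      obtain ⟨p, hpP, hp, -, -, hn⟩ := bisect hC (IsStarProjection.one _) hx hxs (one_mul x) r hr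
      have := ih _ (sub_mem hx (smul_mem _ (sub_mem (add_mem hpP hpP) one_mem)))
        (hxs.sub (IsSelfAdjoint.smul (Complex.conj_ofReal _)
          ((hp.isSelfAdjoint.add hp.isSelfAdjoint).sub (IsSelfAdjoint.one _)))) _ hn
      have e : x + (r : ℂ) • 1 = (x - ((r / 2 : ℝ) : ℂ) • (p + p - 1) + ((r / 2 : ℝ) : ℂ) • 1) +
          (r : ℂ) • (star p * p) := by
        rw [hp.isSelfAdjoint.star_eq, hp.isIdempotentElem.eq]; push_cast; module
      have h3 : 0 ≤ F (star p * p) := by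
        rw [Fm, sub_nonneg]; exact pow_le_pow_left₀ (norm_nonneg _) (h p hpP hp) 2
      rw [e, Fa, Fs, pow_succ]
      nlinarith [mul_nonneg hr0 h3]
  intro a ha
  set t : ℝ := (‖a‖ ^ 2 + 1)⁻¹ with ht
  have t0 : 0 < t := by positivity
  have hlim : Tendsto (fun k : ℕ => -(2 * 1 * M * (1 / 2 : ℝ) ^ k)) atTop (𝓝 (-(2 * 1 * M * 0))) :=
    ((tendsto_pow_atTop_nhds_zero_of_lt_one (by norm_num) (by norm_num)).const_mul _).neg
  have := le_of_tendsto' hlim fun k => key k ((t : ℂ) • (star a * a) - 1)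
    (sub_mem (smul_mem _ (mul_mem (star_mem hC ha) ha)) one_mem)
    ((IsSelfAdjoint.smul (Complex.conj_ofReal _) (IsSelfAdjoint.star_mul_self a)).sub
      (IsSelfAdjoint.one _)) 1 (by
      rw [norm_sub_rev, Complex.coe_smul]; exact H1VN.norm_one_sub_le a)
  rw [Complex.ofReal_one, one_smul, sub_add_cancel, Fs, Fm, mul_zero, neg_zero] at this
  exact le_of_sq_le_sq (sub_nonneg.1 (nonneg_of_mul_nonneg_right this t0 |> fun h => h))
    (by positivity)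

omit [CompleteSpace K] in
theorem fixed_point [CompleteSpace K] (Γ : Set (K →L[ℂ] K)) (A : Set K) (hA : IsClosed A)
    (hne : A.Nonempty) (hmid : ∀ x ∈ A, ∀ y ∈ A, (2⁻¹ : ℂ) • (x + y) ∈ A)
    (hinv : ∀ T ∈ Γ, ∀ x ∈ A, T x ∈ A) (hmul : ∀ S ∈ Γ, ∀ T ∈ Γ, S * T ∈ Γ) {M : ℝ} (hM : 0 < M)
    (hup : ∀ T ∈ Γ, ∀ x, ‖T x‖ ≤ M * ‖x‖)
    (hlo : ∀ T ∈ Γ, ∀ x ∈ A, ∀ y ∈ A, ‖x - y‖ ≤ M * ‖T (x - y)‖) :
    ∃ x ∈ A, ∀ T ∈ Γ, T x = x := by
  rcases Γ.eq_empty_or_nonempty with rfl | ⟨T₀, hT₀⟩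
  · exact hne.imp fun x hx => ⟨hx, by simp⟩
  let S : Set ℝ := {c | ∃ x ∈ A, ∀ T ∈ Γ, ‖T x‖ ^ 2 ≤ c}
  have S0 : S.Nonempty := by
    obtain ⟨x, hx⟩ := hne
    exact ⟨(M * ‖x‖) ^ 2, x, hx, fun T hT => pow_le_pow_left₀ (norm_nonneg _) (hup T hT x) 2⟩
  have Sb : BddBelow S := ⟨0, fun c ⟨x, _, h⟩ => (sq_nonneg _).trans (h T₀ hT₀)⟩
  set d := sInf S
  have diam : ∀ c, ∀ x ∈ A, ∀ y ∈ A, (∀ T ∈ Γ, ‖T x‖ ^ 2 ≤ c) → (∀ T ∈ Γ, ‖T y‖ ^ 2 ≤ c) →
      ‖x - y‖ ^ 2 ≤ 4 * M ^ 2 * (c - d) := fun c x hx y hy h1 h2 => by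
    have : d ≤ c - ‖x - y‖ ^ 2 / (4 * M ^ 2) := csInf_le Sb ⟨_, hmid x hx y hy, fun T hT => by
      have e := parallelogram_law_with_norm ℂ (T x) (T y)
      have e2 := pow_le_pow_left₀ (norm_nonneg _) (hlo T hT x hx y hy) 2
      rw [map_smul, norm_smul, map_add, norm_inv, Complex.norm_ofNat]
      rw [map_sub, mul_pow] at e2
      have e3 : ‖x - y‖ ^ 2 / (4 * M ^ 2) ≤ ‖T x - T y‖ ^ 2 / 4 := by
        rw [div_le_div_iff₀ (by positivity) (by positivity)]; nlinarith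
      have := h1 T hT
      have := h2 T hT
      nlinarith⟩
    rw [le_sub_comm, div_le_iff₀ (by positivity)] at this
    linarith
  have hx : ∀ n : ℕ, ∃ x ∈ A, ∀ T ∈ Γ, ‖T x‖ ^ 2 ≤ d + 1 / ((n : ℝ) + 1) := fun n => by
    obtain ⟨c, ⟨x, hx, h⟩, hc⟩ := exists_lt_of_csInf_lt S0
      (show d < d + 1 / ((n : ℝ) + 1) from lt_add_of_pos_right _ (by positivity))
    exact ⟨x, hx, fun T hT => (h T hT).trans hc.le⟩
  choose x hxA hx using hx
  have l0 := tendsto_one_div_add_atTop_nhds_zero_nat (𝕜 := ℝ)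
  have hc : CauchySeq x := by
    refine cauchySeq_of_le_tendsto_0 (fun N : ℕ => √(4 * M ^ 2 * (1 / ((N : ℝ) + 1))))
      (fun n m N hn hm => ?_) (by simpa using (l0.const_mul (4 * M ^ 2)).sqrt)
    rw [dist_eq_norm]
    apply Real.le_sqrt_of_sq_le
    have := diam (d + 1 / ((N : ℝ) + 1)) _ (hxA n) _ (hxA m)
      (fun T hT => (hx n T hT).trans (by gcongr)) (fun T hT => (hx m T hT).trans (by gcongr))
    rwa [add_sub_cancel_left] at this
  obtain ⟨y, hy⟩ := cauchySeq_tendsto_of_complete hc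
  have yA : y ∈ A := hA.mem_of_tendsto hy (Eventually.of_forall hxA)
  have yd : ∀ T ∈ Γ, ‖T y‖ ^ 2 ≤ d := fun T hT => by
    have := le_of_tendsto_of_tendsto' (((T.continuous.tendsto y).comp hy).norm.pow 2)
      (l0.const_add d) fun n => hx n T hT
    rwa [add_zero] at this
  refine ⟨y, yA, fun T hT => ?_⟩
  have := diam d _ (hinv T hT y yA) _ yA (fun S hS => yd _ (hmul S hS T hT)) yd
  rw [sub_self, mul_zero] at this
  exact sub_eq_zero.1 (norm_eq_zero.1 (pow_eq_zero_iff two_ne_zero |>.1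
    (le_antisymm this (sq_nonneg _))))

theorem norm_unit {u : K →L[ℂ] K} (hu : u ∈ unitary (K →L[ℂ] K)) (x : K) : ‖u x‖ = ‖x‖ := by
  rw [norm_pi (v := u) (by rw [Unitary.star_mul_self_of_mem hu]; exact .one _),
    Unitary.star_mul_self_of_mem hu]; rfl

theorem exists_trace (hC : ∀ c ∈ C, star c ∈ C) (ξ : K) {κ : ℝ} (hκ : 0 < κ)
    (h : ∀ u ∈ C.centralizer, u ∈ unitary (K →L[ℂ] K) → ∀ a ∈ C.centralizer,
      ‖a (u ξ)‖ ≤ κ * ‖a ξ‖) :
    ∃ ζ : K, (∀ a ∈ C.centralizer, ∀ b ∈ C.centralizer, ⟪ζ, (a * b) ξ⟫_ℂ = ⟪ζ, (b * a) ξ⟫_ℂ) ∧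
      ∀ a ∈ C.centralizer, ‖a ξ‖ ^ 2 ≤ κ ^ 2 * (⟪ζ, (star a * a) ξ⟫_ℂ).re := by
  let S : StarSubalgebra ℂ (K →L[ℂ] K) :=
    { Subalgebra.centralizer ℂ C with star_mem' := star_mem hC }
  let ev : K → S →ₗ[ℂ] K := fun x =>
    { toFun := fun a => (a : K →L[ℂ] K) x
      map_add' := fun _ _ => rfl
      map_smul' := fun _ _ => rfl }
  let H := (LinearMap.range (ev ξ)).topologicalClosure
  have Hc : IsClosed (H : Set K) := (LinearMap.range (ev ξ)).isClosed_topologicalClosure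
  haveI : CompleteSpace H := Hc.completeSpace_coe
  have mH : ∀ a : S, ev ξ a ∈ H := fun a => Submodule.le_topologicalClosure _ ⟨a, rfl⟩
  have nH : ∀ x ∈ H, ∀ c, 0 ≤ c → (∀ a ∈ C.centralizer, ‖⟪x, a ξ⟫_ℂ‖ ≤ c * ‖a ξ‖) → ‖x‖ ≤ c :=
    fun x hx c hc hh => by
      have : closure (LinearMap.range (ev ξ) : Set K) ⊆ {y | ‖⟪x, y⟫_ℂ‖ ≤ c * ‖y‖} :=
        closure_minimal (by rintro _ ⟨a, rfl⟩; exact hh a a.2)
          (isClosed_le (by fun_prop) (by fun_prop))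
      have h1 : ‖⟪x, x⟫_ℂ‖ ≤ c * ‖x‖ := this hx
      rw [inner_self_eq_norm_sq_to_K, norm_pow, RCLike.norm_ofReal, abs_norm, sq] at h1
      rcases (norm_nonneg x).eq_or_lt with h | h
      · rwa [← h]
      · exact le_of_mul_le_mul_right h1 h
  let Γ : Set (K →L[ℂ] K) := {T | ∃ u ∈ C.centralizer, u ∈ unitary (K →L[ℂ] K) ∧ (∀ x, T x ∈ H) ∧
    ∀ x, ∀ a ∈ C.centralizer, ⟪T x, a ξ⟫_ℂ = ⟪x, (star u * a * u) ξ⟫_ℂ}
  have hΓ : ∀ u ∈ C.centralizer, u ∈ unitary (K →L[ℂ] K) → ∃ T : K →L[ℂ] K, (∀ x, T x ∈ H) ∧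
      ∀ x, ∀ a ∈ C.centralizer, ⟪T x, a ξ⟫_ℂ = ⟪x, (star u * a * u) ξ⟫_ℂ := fun u huP hu => by
    have hd : DenseRange ((ev ξ).codRestrict H mH) := by
      rw [DenseRange, Subtype.dense_iff]
      refine closure_mono ?_
      rintro _ ⟨a, rfl⟩
      exact ⟨_, ⟨a, rfl⟩, rfl⟩
    let ρ : H →L[ℂ] K := (ev (u ξ)).extendOfNorm ((ev ξ).codRestrict H mH)
    refine ⟨H.subtypeL ∘L ContinuousLinearMap.adjoint ρ ∘L u, fun x => Subtype.prop _,
      fun x a ha => ?_⟩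
    have e := LinearMap.extendOfNorm_eq (f := ev (u ξ)) hd ⟨κ, fun a => h u huP hu a a.2⟩ ⟨a, ha⟩
    refine (ContinuousLinearMap.adjoint_inner_left ρ ⟨_, mH ⟨a, ha⟩⟩ (u x)).trans ?_
    rw [mul_assoc, mul_apply_eq_comp, inner_star_r]
    exact congrArg _ e
  let A : Set K := {x | x ∈ H ∧ ∀ u ∈ C.centralizer, u ∈ unitary (K →L[ℂ] K) →
    ∀ a ∈ C.centralizer, ‖a ξ‖ ^ 2 ≤ κ ^ 2 * (⟪x, (star u * (star a * a) * u) ξ⟫_ℂ).re}
  obtain ⟨ζ, hζ, hfix⟩ := fixed_point Γ A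
    (by
      simp only [A, Set.setOf_and, Set.setOf_forall]
      exact Hc.inter <| isClosed_iInter fun u => isClosed_iInter fun _ => isClosed_iInter fun _ =>
        isClosed_iInter fun a => isClosed_iInter fun _ => isClosed_le (by fun_prop) (by fun_prop))
    ⟨ξ, mH 1, fun u huP hu a ha => by
      have := h _ (star_mem hC huP) (Unitary.star_mem hu) _ (mul_mem ha huP)
      rw [← mul_apply_eq_comp, mul_assoc, Unitary.mul_star_self_of_mem hu, mul_one] at this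
      rw [← mul_assoc, mul_assoc _ a, ← star_mul, re_star_mul, ← mul_pow]
      exact pow_le_pow_left₀ (norm_nonneg _) this 2⟩
    (fun x hx y hy => ⟨H.smul_mem _ (H.add_mem hx.1 hy.1), fun u huP hu a ha => by
      have h1 := hx.2 u huP hu a ha
      have h2 := hy.2 u huP hu a ha
      rw [inner_smul_left, inner_add_left, show conj (2⁻¹ : ℂ) = ((2⁻¹ : ℝ) : ℂ) by simp [map_ofNat],
        Complex.re_ofReal_mul, Complex.add_re]
      linarith⟩)
    (by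
      rintro T ⟨v, hvP, hv, h1, h2⟩ x hx
      refine ⟨h1 x, fun u huP hu a ha => ?_⟩
      rw [h2 _ _ (mul_mem (mul_mem (star_mem hC huP) (mul_mem (star_mem hC ha) ha)) huP)]
      convert hx.2 _ (mul_mem huP hvP) (Submonoid.mul_mem _ hu hv) a ha using 5
      rw [star_mul]; noncomm_ring)
    (by
      rintro T ⟨u, huP, hu, h1, h2⟩ T' ⟨v, hvP, hv, h1', h2'⟩
      refine ⟨u * v, mul_mem huP hvP, Submonoid.mul_mem _ hu hv, fun x => h1 _, fun x a ha => ?_⟩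
      rw [mul_apply_eq_comp, h2 _ _ ha, h2' _ _ (mul_mem (mul_mem (star_mem hC huP) ha) huP)]
      congr 2
      rw [star_mul]; noncomm_ring) hκ
    (by
      rintro T ⟨u, huP, hu, h1, h2⟩ x
      refine nH _ (h1 x) _ (by positivity) fun a ha => ?_
      rw [h2 _ _ ha, mul_assoc, mul_apply_eq_comp, inner_star_r]
      refine (norm_inner_le_norm _ _).trans ?_
      have := h u huP hu a ha
      rw [norm_unit hu, mul_apply_eq_comp, mul_comm κ, mul_assoc]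
      gcongr)
    (by
      rintro T ⟨u, huP, hu, h1, h2⟩ x hx y hy
      refine nH _ (H.sub_mem hx.1 hy.1) _ (by positivity) fun a ha => ?_
      have e := h2 (x - y) _ (mul_mem (mul_mem huP ha) (star_mem hC huP))
      rw [← mul_assoc, ← mul_assoc, Unitary.star_mul_self_of_mem hu, one_mul, mul_assoc a,
        Unitary.star_mul_self_of_mem hu, mul_one] at e
      rw [← e]
      refine (norm_inner_le_norm _ _).trans ?_
      have := h _ (star_mem hC huP) (Unitary.star_mem hu) a ha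
      rw [mul_assoc, mul_apply_eq_comp, norm_unit hu, mul_apply_eq_comp, mul_comm κ, mul_assoc]
      gcongr)
  refine ⟨ζ, fun a ha b hb => ?_, fun a ha => by simpa using hζ.2 1 one_mem (Submonoid.one_mem _) a ha⟩
  have tr : ∀ u ∈ C.centralizer, u ∈ unitary (K →L[ℂ] K) →
      ⟪ζ, (a * u) ξ⟫_ℂ = ⟪ζ, (u * a) ξ⟫_ℂ := fun u huP hu => by
    obtain ⟨T, h1, h2⟩ := hΓ u huP hu
    have := h2 ζ _ (mul_mem huP ha)
    rw [hfix T ⟨u, huP, hu, h1, h2⟩, ← mul_assoc, Unitary.star_mul_self_of_mem hu, one_mul] at this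
    exact this.symm
  haveI : IsClosed (S : Set (K →L[ℂ] K)) := Set.isClosed_centralizer C
  obtain ⟨u, c, e, -⟩ := CStarAlgebra.exists_sum_four_unitary (⟨b, hb⟩ : S)
  have e' : b = ∑ i, c i • ((u i : S) : K →L[ℂ] K) := by simpa using congrArg Subtype.val e
  simp only [e', Finset.mul_sum, Finset.sum_mul, mul_smul_comm, smul_mul_assoc,
    ContinuousLinearMap.sum_apply, ContinuousLinearMap.smul_apply, inner_sum, inner_smul_right]
  refine Finset.sum_congr rfl fun i _ => ?_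
  rw [tr _ (u i).1.2 ⟨congrArg Subtype.val (u i).2.1, congrArg Subtype.val (u i).2.2⟩]

end Crest.Agent.H4.KR
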