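import Crest.Agent.H4.KR.D3
import Crest.Agent.H6.KRD2

/-! KR-D: the trichotomy. -/

set_option autoImplicit false
open scoped InnerProductSpace ComplexConjugate
open Crest.Agent.H2.KS Crest.Agent.H9.KD Crest.Agent.H9.KB Crest.Agent.H1KR Crest.Agent.H6.KRD

namespace Crest.Agent.H4.KR

variable {K : Type*} [NormedAddCommGroup K] [InnerProductSpace ℂ K] [CompleteSpace K]
variable {C : Set (K →L[ℂ] K)}

theorem typeII_of (hC : ∀ c ∈ C, star c ∈ C) {z₀ : K →L[ℂ] K} (hz : IsCP C.centralizer z₀)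
    (hz0 : z₀ ≠ 0) (hI : ¬InfFam C.centralizer z₀)
    (hab : ∀ e, Abel C.centralizer e → z₀ * e = e → e = 0) :
    ∃ z, IsCP C.centralizer z ∧ z ≠ 0 ∧ z₀ * z = z ∧ TypeII C.centralizer z := by
  obtain ⟨g, hgP, hg, hzg, hg0, ξ, κ, hκ, sep, hle⟩ := local_cmp hC hz hz0
    fun s g hs h1 h2 h3 h4 => fin_eq hC hI hs h1 h2 h3 h4
  have hC' : ∀ c ∈ insert g C, star c ∈ insert g C := by
    rintro c (rfl | hc)
    exacts [Or.inl hg.isSelfAdjoint.star_eq, Or.inr (hC c hc)]
  have mem : ∀ a, a ∈ (insert g C).centralizer ↔ a ∈ C.centralizer ∧ g * a = a * g := fun a =>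
    ⟨fun h => ⟨fun c hc => h c (Or.inr hc), h g (Or.inl rfl)⟩, fun h c hc => by
      rcases hc with rfl | hc
      exacts [h.2, h.1 c hc]⟩
  obtain ⟨ζ, tr, pos⟩ := exists_trace hC' (g ξ) hκ fun u huP hu =>
    pos_of_proj hC' _ _ hκ.le fun p hpP hp => by
      rw [mem] at huP hpP
      have := hle (p * g) (mul_mem hpP.1 hgP) (hp.mul hg hpP.2.symm)
        (by rw [← mul_assoc, hpP.2, mul_assoc, hg.isIdempotentElem.eq]) u huP.1 hu huP.2
      rwa [mul_apply_eq_comp, ← mul_apply_eq_comp g, huP.2] at this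
  obtain ⟨z, hzc, hz1, hz2, k, w, hw, hsum⟩ := cover hC hz hI hgP hg hzg hg0
  have zw' : ∀ i, star (w i) * z = star (w i) := fun i => by
    ext η
    have h1 : ∑ j, ‖star (w j) (η - z η)‖ ^ 2 = 0 := by
      have : ∀ j, ‖star (w j) (η - z η)‖ ^ 2 = (⟪η - z η, (w j * star (w j)) (η - z η)⟫_ℂ).re :=
        fun j => by rw [← re_star_mul, star_star]
      simp only [this]
      rw [← Complex.re_sum, ← inner_sum, ← ContinuousLinearMap.sum_apply, hsum, map_sub,
        ← mul_apply_eq_comp z z, hzc.proj.isIdempotentElem.eq]; simp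
    have h2 := (Finset.sum_eq_zero_iff_of_nonneg fun j _ => sq_nonneg _).1 h1 i (Finset.mem_univ _)
    rw [pow_eq_zero_iff two_ne_zero, norm_eq_zero, map_sub, sub_eq_zero] at h2
    exact h2.symm
  have zw : ∀ i, z * w i = w i := fun i => by simpa using flip' hzc.proj (zw' i)
  let τ : (K →L[ℂ] K) → ℂ := fun b => ⟪ζ, b (g ξ)⟫_ℂ + conj ⟪ζ, star b (g ξ)⟫_ℂ
  let x : (K →L[ℂ] K) → Fin k → Fin k → (K →L[ℂ] K) := fun a i j => star (w i) * a * w j
  have xg : ∀ a i j, x a i j * g = x a i j := fun a i j => by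
    simp only [x]; rw [mul_assoc, (hw j).2]
  have xP : ∀ a ∈ C.centralizer, ∀ i j, x a i j ∈ (insert g C).centralizer := fun a ha i j =>
    (mem _).2 ⟨mul_mem (mul_mem (star_mem hC (hw i).1) ha) (hw j).1, by
      rw [xg]; simp only [x]; rw [← mul_assoc, ← mul_assoc, flip' hg (hw i).2]⟩
  have xs : ∀ a i j, star (x a i j) = x (star a) j i := fun a i j => by simp [x, mul_assoc]
  have xm : ∀ a, ∀ b ∈ C.centralizer, ∀ i, x (a * b) i i = ∑ j, x a i j * x b j i :=
    fun a b hb i => by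
      have : x (a * b) i i = star (w i) * a * z * (b * w i) := by
        simp only [x]
        rw [mul_assoc _ z, ← mul_assoc z, (hzc.comm b hb).eq, mul_assoc b, zw, mul_assoc,
          mul_assoc, mul_assoc]
      rw [this, ← hsum, Finset.mul_sum, Finset.sum_mul]
      exact Finset.sum_congr rfl fun j _ => by simp only [x, mul_assoc]
  have τs : ∀ f : Fin k → (K →L[ℂ] K), τ (∑ j, f j) = ∑ j, τ (f j) := fun f => by
    simp [τ, ContinuousLinearMap.sum_apply, inner_sum, sum_inner, Finset.sum_add_distrib]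
  have τp : ∀ b, τ (star b * b) = ((2 * (⟪ζ, (star b * b) (g ξ)⟫_ℂ).re : ℝ) : ℂ) := fun b => by
    simp only [τ]; rw [star_mul, star_star, Complex.add_conj]
  let R : (K →L[ℂ] K) → ℝ := fun a =>
    ∑ i, ∑ j, 2 * (⟪ζ, (star (x a j i) * x a j i) (g ξ)⟫_ℂ).re
  have hR : ∀ a ∈ C.centralizer, ∑ i, τ (x (star a * a) i i) = R a := fun a ha => by
    simp only [xm _ _ ha, τs, ← xs, τp, R, Complex.ofReal_sum]
  have R0 : ∀ a ∈ C.centralizer, ∀ i j, 0 ≤ 2 * (⟪ζ, (star (x a j i) * x a j i) (g ξ)⟫_ℂ).re :=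
    fun a ha i j => mul_nonneg zero_le_two (nonneg_of_mul_nonneg_right
      ((sq_nonneg _).trans (pos _ (xP a ha j i))) (by positivity))
  have R1 : ∀ a ∈ C.centralizer, 0 ≤ R a := fun a ha =>
    Finset.sum_nonneg fun i _ => Finset.sum_nonneg fun j _ => R0 a ha i j
  have R2 : ∀ a ∈ C.centralizer, R a = 0 → a * z = 0 := fun a ha h => by
    have h1 : ∀ i j, x a j i = 0 := fun i j => by
      have := (Finset.sum_eq_zero_iff_of_nonneg fun j _ => R0 a ha i j).1
        ((Finset.sum_eq_zero_iff_of_nonneg fun i _ => Finset.sum_nonneg fun j _ => R0 a ha i j).1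
          h i (Finset.mem_univ _)) j (Finset.mem_univ _)
      have h2 := pos _ (xP a ha j i)
      rw [(mul_eq_zero.1 this).resolve_left two_ne_zero, mul_zero, ← mul_apply_eq_comp, xg] at h2
      rw [← xg, sep _ ((mem _).1 (xP a ha j i)).1 (norm_eq_zero.1 (pow_eq_zero_iff two_ne_zero |>.1
        (le_antisymm h2 (sq_nonneg _))))]
    have : z * a * z = ∑ j, ∑ i, w j * x a j i * star (w i) := by
      rw [← hsum, Finset.sum_mul, Finset.sum_mul]
      exact Finset.sum_congr rfl fun j _ => by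
        rw [Finset.mul_sum]; exact Finset.sum_congr rfl fun i _ => by simp only [x, mul_assoc]
    rw [(hzc.comm a ha).eq, mul_assoc, hzc.proj.isIdempotentElem.eq] at this
    simp [this, h1]
  have R3 : 0 < R 1 := (R1 1 one_mem).lt_of_ne' fun h => hz1 (by simpa using R2 1 one_mem h)
  set t : ℝ := (R 1)⁻¹ with ht
  have hv : ∀ a, vf (List.ofFn (fun i => (w i ζ, (t : ℂ) • w i (g ξ))) ++
      List.ofFn fun i => (w i (g ξ), (t : ℂ) • w i ζ)) a = t * ∑ i, τ (x a i i) := fun a => by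
    simp only [vf, List.map_append, List.sum_append, List.map_ofFn, List.sum_ofFn,
      Function.comp_apply, map_smul, inner_smul_right, τ, x, Finset.mul_sum, ← Finset.sum_add_distrib,
      inner_conj_symm, inner_star_l, mul_apply_eq_comp, inner_star_r, mul_add]
  refine ⟨z, hzc, hz1, hz2, fun e he h => hab e he (by rw [← h, ← mul_assoc, hz2]),
    List.ofFn (fun i => (w i ζ, (t : ℂ) • w i (g ξ))) ++
      List.ofFn fun i => (w i (g ξ), (t : ℂ) • w i ζ), ?_, ?_,
    fun a ha b hb => ?_, fun a ha => ?_, fun a ha => ?_, fun a ha h => R2 a ha ?_⟩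
  · intro p hp
    simp only [List.mem_append, List.mem_ofFn] at hp
    rcases hp with ⟨i, rfl⟩ | ⟨i, rfl⟩ <;>
      simp only [map_smul, ← mul_apply_eq_comp z, zw, and_self]
  · have := hR 1 one_mem
    rw [star_one, one_mul] at this
    rw [hv, this, ← Complex.ofReal_mul, ht, inv_mul_cancel₀ R3.ne', Complex.ofReal_one]
  · rw [hv, hv]
    simp only [xm _ _ ha, xm _ _ hb, τs]
    rw [Finset.sum_comm]
    congr 1
    refine Finset.sum_congr rfl fun i _ => Finset.sum_congr rfl fun j _ => ?_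
    simp only [τ, star_mul]
    rw [tr _ (xP a ha j i) _ (xP b hb i j), tr _ (star_mem hC' (xP a ha j i)) _
      (star_mem hC' (xP b hb i j))]
  · rw [hv, hv]
    simp [← xs, τ, add_comm]
  · rw [hv, hR a ha, ← Complex.ofReal_mul, Complex.ofReal_re]
    exact mul_nonneg (by positivity) (R1 a ha)
  · rw [hv, hR a ha, ← Complex.ofReal_mul, Complex.ofReal_eq_zero] at h
    exact (mul_eq_zero.1 h).resolve_left (by positivity)

theorem trichotomy (hC : ∀ c ∈ C, star c ∈ C) : Trichotomy C := by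
  intro z₀ hz hz0
  by_cases hI : InfFam C.centralizer z₀
  · obtain ⟨z, h1, h2, h3, h4⟩ := typeP_of_inf hC hz hI
    exact ⟨z, h1, h2, h3, Or.inl h4⟩
  by_cases hab : ∀ e, Abel C.centralizer e → z₀ * e = e → e = 0
  · obtain ⟨z, h1, h2, h3, h4⟩ := typeII_of hC hz hz0 hI hab
    exact ⟨z, h1, h2, h3, Or.inr (Or.inr h4)⟩
  · push Not at hab
    obtain ⟨e, he, h, h0⟩ := hab
    obtain ⟨z, h1, h2, h3, h4⟩ := typeI_of_abel hC hz hI he h h0
    exact ⟨z, h1, h2, h3, Or.inr (Or.inl h4)⟩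

end Crest.Agent.H4.KR
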